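import Vale.Agent.P032.R2.H301.FieldL
import Vale.Agent.P032.R2.H264.Wd
import Vale.Agent.P032.R2.H609.Typ

/-!
# P032: the type fields and the anchor at an instant

For `semAt U T G D L0 u L K` (264) in a world `Wd U T G D`: the fields `tpkeep`, `tpend`, `anch`,
`anchD`, `nc` of 741's `TF`, word for word.  `Typd`: what is needed of the two letter sets of a typed
pair; `Typd.of_typ`: from the types `Typ` (609).
-/

set_option autoImplicit false

open Set Filter Topology Metric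

noncomputable section

namespace Vale.Agent.P032.R2.H301

open Vale.Agent.P032.Six Vale.Agent.P032.Words Vale.Agent.P032.S5.H767
open Vale.Agent.P032.R2.H741.Tp Vale.Agent.P032.R2.H264

variable {U : Fin 6 → Set ℂ} {T : ℂ → Set (Fin 6)} {G : RD} {D : Dat} {L0 L K : Sl G} {u : ℝ}

theorem lm4_eq_l4 (l : Fin 6) : lm4 l = l4 l := by
  fin_cases l <;> rfl

theorem sub4_of_wd (W : Wd U T G D) {r : ℕ} (hr : r < G.R + G.Y) : Sub4 T G D r := by
  intro l q _ hq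
  rw [lm4_eq_l4]
  exact W.memL4 hr hq

/-- the letter set with the type `E` of the pair `p` -/
def tE (p : ℕ) : Fin 6 := if p = 0 then 2 else 3

/-- the letter set with the type `F` of the pair `p` -/
def tF (p : ℕ) : Fin 6 := if p = 0 then 5 else 4

/-- the letter sets of the pair `p` of the ring `r` are typed -/
structure Typd (T : ℂ → Set (Fin 6)) (G : RD) (D : Dat) (r p : ℕ) : Prop where
  keep : ∀ q, dist q (D.c r) = 1 → q ∈ D.F r (tE p) → q ∈ D.F r (tF p) → False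
  endE : ∀ q, dist q (D.c r) = 1 → q ∈ D.F r (tE p) → D.x (G.sg r 5) ∈ T q →
    D.x (G.sg r 4) ∈ T q
  endF : ∀ q, dist q (D.c r) = 1 → q ∈ D.F r (tF p) → D.x (G.sg r 4) ∈ T q →
    D.x (G.sg r 5) ∈ T q

/-- typed letter sets from 609's types -/
theorem Typd.of_typ {r p : ℕ} {P : Set (Fin 6)} {SE SF : Set ℂ}
    (t : Typ T (D.c r) P (D.x (G.sg r 4)) (D.x (G.sg r 5)) SE SF)
    (hE : D.F r (tE p) ⊆ closure (Ex T (D.c r) P) ∩ SE)
    (hF : D.F r (tF p) ⊆ closure (Ex T (D.c r) P) ∩ SF) : Typd T G D r p where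
  keep _ h1 h2 h3 := t.not_both h1 (hE h2).2 (hF h3).2
  endE _ _ h2 h3 := t.endE (hE h2).1 (hE h2).2 h3
  endF _ _ h2 h3 := t.endF (hF h2).1 (hF h2).2 h3

theorem lm_type {p : ℕ} (hp : p < 2) {l : Fin 6} (h : lm l = 2 + p) :
    (l = tE p ∧ ¬ l.val = 5 - p) ∨ (l = tF p ∧ l.val = 5 - p) := by
  have hp' : p = 0 ∨ p = 1 := by omega
  rcases hp' with rfl | rfl
  · revert l; decide
  · revert l; decide

/-- the letter set of a typed letter -/
theorem tl_cases {p : ℕ} (hp : p < 2) {r k : ℕ} (hX : XL L r k (2 + p))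
    (hS : Sel (posX (cen G D) (lts G D)) u L) :
    (pp D r k u ∈ D.F r (tE p) ∧ ¬ TL L r p k) ∨ (pp D r k u ∈ D.F r (tF p) ∧ TL L r p k) := by
  obtain ⟨hr, hk, h1⟩ := hX
  have h2 : pp D r k u ∈ D.F r (L (⟨r, hr⟩, ⟨k, hk⟩)) := hS (⟨r, hr⟩, ⟨k, hk⟩)
  rcases lm_type hp h1 with ⟨h3, h4⟩ | ⟨h3, h4⟩
  · left
    rw [h3] at h2
    exact ⟨h2, fun ⟨_, _, h5⟩ => h4 h5⟩
  · right
    rw [h3] at h2
    exact ⟨h2, hr, hk, h4⟩

/-- a pair letter of a selection: a limit of exact arcs -/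
theorem xl_closure (W : Wd U T G D) {r k p : ℕ} (hp : p < 2) (hX : XL L r k (2 + p))
    (hS : Sel (posX (cen G D) (lts G D)) u L) :
    pp D r k u ∈ closure (Ex T (D.c r) {D.x (G.sg r (2 * p)), D.x (G.sg r (2 * p + 1))}) := by
  obtain ⟨hr, hk, h1⟩ := hX
  have h2 : pp D r k u ∈ D.F r (L (⟨r, hr⟩, ⟨k, hk⟩)) := hS (⟨r, hr⟩, ⟨k, hk⟩)
  have h3 := W.memL4 hr h2
  have hp' : p = 0 ∨ p = 1 := by omega
  rcases hp' with rfl | rfl
  · have e : l4 (L (⟨r, hr⟩, ⟨k, hk⟩)) = 2 := by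
      apply Fin.ext; rw [l4_val, h1]; rfl
    rw [e] at h3
    exact h3
  · have e : l4 (L (⟨r, hr⟩, ⟨k, hk⟩)) = 3 := by
      apply Fin.ext; rw [l4_val, h1]; rfl
    rw [e] at h3
    exact h3

section
variable (S : Sem) (hS : S = semAt U T G D L0 u L K)
include hS

theorem t_tpkeep (W : Wd U T G D)
    (hL : LimL (posX (cen G D) (lts G D)) (Good (cen G D)) u L)
    (hK : LimR (posX (cen G D) (lts G D)) (Good (cen G D)) u K)
    (hT : ∀ r < G.R, ∀ p < 2, G.ty r p = true → Typd T G D r p) :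
    ∀ r < G.R, ∀ p < 2, G.ty r p = true → ∀ k < 6, S.X 0 r k (2 + p) →
      S.X 1 r k (2 + p) → (S.ty 0 r p k ↔ S.ty 1 r p k) := by
  subst hS
  intro r hr p hp ht k _ h1 h2
  rw [sem_ty0, sem_ty1]
  have hq : dist (pp D r k u) (D.c r) = 1 := dist_pt _ _
  rcases tl_cases hp (sem_X0.1 h1) ((W.rings.sys W.wt.irr).limL_sel hL).1 with
      ⟨h3, h4⟩ | ⟨h3, h4⟩ <;>
    rcases tl_cases hp (sem_X1.1 h2) ((W.rings.sys W.wt.irr).limR_sel hK).1 with
      ⟨h5, h6⟩ | ⟨h5, h6⟩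
  · exact iff_of_false h4 h6
  · exact ((hT r hr p hp ht).keep _ hq h3 h5).elim
  · exact ((hT r hr p hp ht).keep _ hq h5 h3).elim
  · exact iff_of_true h4 h6

theorem t_tpend (W : Wd U T G D)
    (hL : LimL (posX (cen G D) (lts G D)) (Good (cen G D)) u L)
    (hK : LimR (posX (cen G D) (lts G D)) (Good (cen G D)) u K)
    (hT : ∀ r < G.R, ∀ p < 2, G.ty r p = true → Typd T G D r p) :
    ∀ r < G.R, ∀ p < 2, G.ty r p = true → ∀ t < 2, ∀ k < 6, S.X t r k (2 + p) →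
      (S.C r k (G.sg r 4) → ¬ S.C r k (G.sg r 5) → ¬ S.ty t r p k) ∧
      (S.C r k (G.sg r 5) → ¬ S.C r k (G.sg r 4) → S.ty t r p k) := by
  subst hS
  intro r hr p hp ht t ht2 k _ h1
  have hq : dist (pp D r k u) (D.c r) = 1 := dist_pt _ _
  have hT' := hT r hr p hp ht
  have ht' : t = 0 ∨ t = 1 := by omega
  rcases ht' with rfl | rfl
  · rw [sem_ty0]
    rcases tl_cases hp (sem_X0.1 h1) ((W.rings.sys W.wt.irr).limL_sel hL).1 with
        ⟨h3, h4⟩ | ⟨h3, h4⟩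
    · exact ⟨fun _ _ => h4, fun h5 h6 => (h6 (hT'.endE _ hq h3 h5)).elim⟩
    · exact ⟨fun h5 h6 => (h6 (hT'.endF _ hq h3 h5)).elim, fun _ _ => h4⟩
  · rw [sem_ty1]
    rcases tl_cases hp (sem_X1.1 h1) ((W.rings.sys W.wt.irr).limR_sel hK).1 with
        ⟨h3, h4⟩ | ⟨h3, h4⟩
    · exact ⟨fun _ _ => h4, fun h5 h6 => (h6 (hT'.endE _ hq h3 h5)).elim⟩
    · exact ⟨fun h5 h6 => (h6 (hT'.endF _ hq h3 h5)).elim, fun _ _ => h4⟩

/-- the anchor: a two-pair contact with the colours of the pair `p` -/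
theorem t_anch (W : Wd U T G D) (h0 : D.u0 ≤ u)
    (hL : LimL (posX (cen G D) (lts G D)) (Good (cen G D)) u L)
    (hK : LimR (posX (cen G D) (lts G D)) (Good (cen G D)) u K)
    (hA : ∀ r < G.R, ∀ p < 2, G.ap r = p + 1 →
      DPt T (pt (D.c r) D.u0) (D.x (G.sg r (2 * p))) (D.x (G.sg r 4)) (D.x (G.sg r (2 * p + 1)))
        (D.x (G.sg r 5)) ∨
      DPt T (pt (D.c r) D.u0) (D.x (G.sg r (2 * p))) (D.x (G.sg r 5)) (D.x (G.sg r (2 * p + 1)))
        (D.x (G.sg r 4))) :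
    ∀ r < G.R, ∀ p < 2, G.ap r = p + 1 → S.F 0 →
      (∀ i < 6, (S.C r 0 i ↔ i = G.sg r (2 * p) ∨ i = G.sg r (2 * p + 1) ∨ i = G.sg r 4 ∨
        i = G.sg r 5)) ∧ (S.X 0 r 0 (2 + p) ↔ ¬ S.X 1 r 0 (2 + p)) := by
  subst hS
  intro r hr0 p hp ha hF
  have hr : r < G.R + G.Y := Nat.lt_add_right _ hr0
  have hu : u = D.u0 := le_antisymm hF.2 h0
  have hpt : pp D r 0 u = pt (D.c r) D.u0 := by
    show pt (D.c r) (u + ((0 : ℕ) : ℝ)) = _
    rw [Nat.cast_zero, add_zero, hu]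
  have hpv : pt (D.c r) (u + ((0 : ℕ) : ℝ)) = pt (D.c r) D.u0 := hpt
  constructor
  · have hpal : T (pp D r 0 u) = {D.x (G.sg r (2 * p)), D.x (G.sg r (2 * p + 1)),
        D.x (G.sg r 4), D.x (G.sg r 5)} := by
      rw [hpt]
      rcases hA r hr0 p hp ha with h1 | h1
      · rw [h1.pal]; ext i; simp only [mem_insert_iff, mem_singleton_iff]; tauto
      · rw [h1.pal]; ext i; simp only [mem_insert_iff, mem_singleton_iff]; tauto
    intro i hi
    show D.x i ∈ T (pp D r 0 u) ↔ _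
    rw [hpal]
    simp only [mem_insert_iff, mem_singleton_iff]
    have key : ∀ j < 6, (D.x i = D.x (G.sg r j) ↔ i = G.sg r j) := fun j hj =>
      ⟨fun h => W.xi _ hi _ (W.sgl r hr j hj) h, fun h => by rw [h]⟩
    rw [key (2 * p) (by omega), key (2 * p + 1) (by omega), key 4 (by norm_num),
      key 5 (by norm_num)]
  · have hsub := sub4_of_wd W hr
    have hl := lf_of_semL hL hsub hr (show 0 < 6 by norm_num)
    have hm := rf_of_semR hK hsub hr (show 0 < 6 by norm_num)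
    have h2 : 2 + p < 4 := by omega
    rw [sem_X0, sem_X1, xl_iff_lm4 hr (show 0 < 6 by norm_num) h2,
      xl_iff_lm4 hr (show 0 < 6 by norm_num) h2]
    generalize lm4 (L (⟨r, hr⟩, ⟨0, (show 0 < 6 by norm_num)⟩)) = l at hl
    generalize lm4 (K (⟨r, hr⟩, ⟨0, (show 0 < 6 by norm_num)⟩)) = m at hm
    have hA' := hA r hr0 p hp ha
    rw [← hpv] at hA'
    have hp' : p = 0 ∨ p = 1 := by omega
    have e2 : ∀ l m : Fin 4, ((l = 2 ∧ (m = 0 ∨ m = 1)) ∨ (m = 2 ∧ (l = 0 ∨ l = 1))) →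
        (l = 2 ↔ ¬ m = 2) := by decide
    have e3 : ∀ l m : Fin 4, ((l = 3 ∧ (m = 0 ∨ m = 1)) ∨ (m = 3 ∧ (l = 0 ∨ l = 1))) →
        (l = 3 ↔ ¬ m = 3) := by decide
    rcases hp' with rfl | rfl
    · exact e2 l m (W.wt.irr.f_s4word (W.dpt r hr) (W.nd hr) hA' hl hm)
    · exact e3 l m (W.wt.irr.f_s4word' (W.dpt r hr) (W.nd hr) hA' hl hm)

/-- the anchor is a two-pair contact with the pairs number `w` -/
theorem t_anchD (h0 : D.u0 ≤ u)
    (hA : ∀ r < G.R, ∀ w < 16, G.ad r = w + 1 →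
      DPt T (pt (D.c r) D.u0) (D.x (pc G r w 0)) (D.x (pc G r w 1)) (D.x (pc G r w 2))
        (D.x (pc G r w 3))) :
    ∀ r < G.R, ∀ w < 16, G.ad r = w + 1 → S.F 0 → S.D r 0 w := by
  subst hS
  intro r hr w hw ha hF
  have hu : u = D.u0 := le_antisymm hF.2 h0
  have hpt : pp D r 0 u = pt (D.c r) D.u0 := by
    show pt (D.c r) (u + ((0 : ℕ) : ℝ)) = _
    rw [Nat.cast_zero, add_zero, hu]
  show DPt T (pp D r 0 u) _ _ _ _
  rw [hpt]
  exact hA r hr w hw ha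

/-- the arcs of the pair `p` do not meet a four-coloured point -/
theorem t_nc (W : Wd U T G D)
    (hL : LimL (posX (cen G D) (lts G D)) (Good (cen G D)) u L)
    (hK : LimR (posX (cen G D) (lts G D)) (Good (cen G D)) u K)
    (hN : ∀ r < G.R, ∀ p < 2, G.nc r p = true → ∀ q, dist q (D.c r) = 1 → 4 ≤ (T q).ncard →
      q ∉ closure (Ex T (D.c r) {D.x (G.sg r (2 * p)), D.x (G.sg r (2 * p + 1))})) :
    ∀ r < G.R, ∀ p < 2, G.nc r p = true → ∀ k < 6, ∀ t < 2, S.Q r k →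
      S.C r k (G.sg r (2 * p)) → S.C r k (G.sg r (2 * p + 1)) → ¬ S.X t r k (2 + p) := by
  subst hS
  intro r hr p hp hn k _ t ht hQ _ _ hX
  have ht' : t = 0 ∨ t = 1 := by omega
  refine hN r hr p hp hn _ (dist_pt (D.c r) (u + (k : ℝ))) hQ ?_
  rcases ht' with rfl | rfl
  · exact xl_closure W hp (sem_X0.1 hX) ((W.rings.sys W.wt.irr).limL_sel hL).1
  · exact xl_closure W hp (sem_X1.1 hX) ((W.rings.sys W.wt.irr).limR_sel hK).1

end

end Vale.Agent.P032.R2.H301
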