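import Vale.Agent.P032.R2.H939.End3N
import Vale.Agent.P032.R2.H609.Typ

/-!
# P032: a four-coloured end gives a two-pair contact

`WT.two_anchor`: the centre `z = {ab|cd}` without contacts of type S4r, a four-coloured limit of exact
`ab`-arcs: there is a two-pair contact with the colours `a, b, e, f` or `c, d, e, f`.
-/

set_option autoImplicit false

open Set Filter Topology Metric

noncomputable section

namespace Vale.Agent.P032.Six

open S5.H767 (Ex Lt Xs pt Ctr sub_of_closure dist_of_closure)

variable {U : Fin 6 → Set ℂ} {T : ℂ → Set (Fin 6)} {z y : ℂ} {a b c d e f : Fin 6}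

namespace WT

theorem two_anchor (H : WT U T) (hmin : MinF U T) (hR : NoR T z) (hz : DPt T z a b c d)
    (nd : [a, b, c, d, e, f].Nodup) (hy : y ∈ closure (Ex T z {a, b})) (h4 : 4 ≤ (T y).ncard) :
    ∃ q, dist q z = 1 ∧ (DPt T q a e b f ∨ DPt T q a f b e ∨ DPt T q c e d f ∨
      DPt T q c f d e) := by
  by_contra hcon
  push Not at hcon
  have h1 := H.end3H hmin hR hz ?_ hy
  · omega
  intro q hq hq4 hs
  obtain ⟨n1, n2, n3, n4⟩ := hcon q hq
  rcases hs with hs | hs
  · have hT : T q = {a, b, e, f} :=
      H.pal_same hz nd hq hq4.ge (hs (by simp)) (hs (by simp))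
    rcases H.contact_same hmin hz nd hq hT with h1 | h1 | ⟨A, hA, -⟩
    · exact absurd h1 n1
    · exact absurd h1 n2
    · exact ⟨A, hA⟩
  · have hT : T q = {c, d, e, f} :=
      H.pal_same hz.swap (nodup_swap609 nd) hq hq4.ge (hs (by simp)) (hs (by simp))
    rcases H.contact_same hmin hz.swap (nodup_swap609 nd) hq hT with h1 | h1 | ⟨A, hA, -⟩
    · exact absurd h1 n3
    · exact absurd h1 n4
    · exact ⟨A, hA⟩

end WT

end Vale.Agent.P032.Six
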