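import Vale.Agent.P032.R2.H264.SemAt
import Vale.Agent.P032.R2.H609.WFam

/-!
# P032: the letter fields at an instant

For `semAt U T G D L0 u L K` (264) the letter fields of the facts at an instant (741's `SF`, `TF`,
`IF`, `BF`), word for word: `some`, `uniq`, `legal`, `legal2` before and after, `LC`, `s4word`,
`initX`, `closeX`.  `lf_of_semL`, `rf_of_semR`: the letter of a limit selection is frequent on the
left or on the right.
-/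

set_option autoImplicit false

open Set Filter Topology Metric

noncomputable section

namespace Vale.Agent.P032.R2.H301

open Vale.Agent.P032.Six Vale.Agent.P032.Words Vale.Agent.P032.S5.H767
open Vale.Agent.P032.R2.H741.Tp Vale.Agent.P032.R2.H264

variable {U : Fin 6 → Set ℂ} {T : ℂ → Set (Fin 6)} {G : RD} {D : Dat} {L0 L K : Sl G} {u : ℝ}

/-! ### the letters of a selection -/

theorem lm_lt (i : Fin 6) : lm i < 4 := by
  revert i; decide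

theorem lm_cases (i : Fin 6) : lm i = 0 ∨ lm i = 1 ∨ lm i = 2 ∨ lm i = 3 := by
  have := lm_lt i; omega

/-- the letter with a number as an element of `Fin 4` -/
def lm4 (i : Fin 6) : Fin 4 := ⟨lm i, lm_lt i⟩

theorem xl_some {r k : ℕ} (hr : r < G.R + G.Y) (hk : k < 6) :
    XL L r k 0 ∨ XL L r k 1 ∨ XL L r k 2 ∨ XL L r k 3 := by
  rcases lm_cases (L (⟨r, hr⟩, ⟨k, hk⟩)) with h | h | h | h
  · exact Or.inl ⟨hr, hk, h⟩
  · exact Or.inr (Or.inl ⟨hr, hk, h⟩)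
  · exact Or.inr (Or.inr (Or.inl ⟨hr, hk, h⟩))
  · exact Or.inr (Or.inr (Or.inr ⟨hr, hk, h⟩))

theorem xl_uniq {r k l m : ℕ} (h1 : XL L r k l) (h2 : XL L r k m) : l = m := by
  obtain ⟨hr, hk, h1⟩ := h1
  obtain ⟨_, _, h2⟩ := h2
  exact h1.symm.trans h2

/-- the colours of a letter are among the colours of its letter set -/
theorem lc_cls {r : Fin (G.R + G.Y)} {l : Fin 6} {i : ℕ} (h : i ∈ lc G r.val (lm l)) :
    D.x i ∈ cls G D r l := by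
  fin_cases l
  · have e : i = G.sg r.val 4 := List.mem_singleton.1 h
    rw [e]; exact rfl
  · have e : i = G.sg r.val 5 := List.mem_singleton.1 h
    rw [e]; exact rfl
  · have e : i = G.sg r.val 0 ∨ i = G.sg r.val 1 := by
      have h' : i ∈ [G.sg r.val 0, G.sg r.val 1] := h
      simpa using h'
    rcases e with e | e
    · rw [e]; exact Or.inl rfl
    · rw [e]; exact Or.inr rfl
  · have e : i = G.sg r.val 2 ∨ i = G.sg r.val 3 := by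
      have h' : i ∈ [G.sg r.val 2, G.sg r.val 3] := h
      simpa using h'
    rcases e with e | e
    · rw [e]; exact Or.inl rfl
    · rw [e]; exact Or.inr rfl
  · have e : i = G.sg r.val 2 ∨ i = G.sg r.val 3 := by
      have h' : i ∈ [G.sg r.val 2, G.sg r.val 3] := h
      simpa using h'
    rcases e with e | e
    · rw [e]; exact Or.inl rfl
    · rw [e]; exact Or.inr rfl
  · have e : i = G.sg r.val 0 ∨ i = G.sg r.val 1 := by
      have h' : i ∈ [G.sg r.val 0, G.sg r.val 1] := h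
      simpa using h'
    rcases e with e | e
    · rw [e]; exact Or.inl rfl
    · rw [e]; exact Or.inr rfl

theorem exists_lc (r l : ℕ) : ∃ i, i ∈ lc G r l := by
  unfold lc
  split
  · exact ⟨_, List.mem_singleton_self _⟩
  · exact ⟨_, List.mem_singleton_self _⟩
  · exact ⟨_, List.mem_cons_self⟩
  · exact ⟨_, List.mem_cons_self⟩

theorem xl_legal (hL : Legal (Conf (cen G D) (cls G D)) L) {r k l : ℕ} (h1 : XL L r k l) :
    ¬ XL L r ((k + 1) % 6) l := by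
  obtain ⟨hr, hk, h1⟩ := h1
  rintro ⟨_, hk', h2⟩
  refine hL (⟨r, hr⟩, ⟨k, hk⟩) (⟨r, hr⟩, ⟨(k + 1) % 6, hk'⟩) ⟨Or.inl ⟨rfl, Or.inl ?_⟩, ?_⟩
  · apply Fin.ext
    show (k + 1) % 6 = (k + 1 % 6) % 6
    omega
  · obtain ⟨i, hi⟩ := exists_lc (G := G) r l
    refine ⟨D.x i, ?_, ?_⟩
    · exact lc_cls (r := ⟨r, hr⟩) (by rw [h1]; exact hi)
    · exact lc_cls (r := ⟨r, hr⟩) (by rw [h2]; exact hi)

theorem xl_legal2 (hL : Legal (Conf (cen G D) (cls G D)) L) {r s : ℕ}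
    (hd : dist (D.c r) (D.c s) = 1) {k l m i : ℕ} (h1 : i ∈ lc G r l) (h2 : i ∈ lc G s m)
    (h3 : XL L r k l) : ¬ XL L s k m := by
  obtain ⟨hr, hk, h3⟩ := h3
  rintro ⟨hs, _, h4⟩
  refine hL (⟨r, hr⟩, ⟨k, hk⟩) (⟨s, hs⟩, ⟨k, hk⟩) ⟨Or.inr ⟨hd, rfl⟩, ⟨D.x i, ?_, ?_⟩⟩
  · exact lc_cls (r := ⟨r, hr⟩) (by rw [h3]; exact h1)
  · exact lc_cls (r := ⟨s, hs⟩) (by rw [h4]; exact h2)

/-- the colours of the letters of a selection are in the palettes -/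
theorem xl_col (R : Rings T (cen G D) (cls G D) (lts G D))
    (hL : Sel (posX (cen G D) (lts G D)) u L) {r k l i : ℕ} (hi : i ∈ lc G r l)
    (h1 : XL L r k l) : D.x i ∈ T (pp D r k u) := by
  obtain ⟨hr, hk, h1⟩ := h1
  have h2 : pp D r k u ∈ lts G D ⟨r, hr⟩ (L (⟨r, hr⟩, ⟨k, hk⟩)) := hL (⟨r, hr⟩, ⟨k, hk⟩)
  exact R.sub ⟨r, hr⟩ _ _ (dist_pt _ _) h2 (lc_cls (r := ⟨r, hr⟩) (by rw [h1]; exact hi))

/-! ### the limits -/

/-- a letter set of `semAt` is inside the letter set of `Lt` -/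
def Sub4 (T : ℂ → Set (Fin 6)) (G : RD) (D : Dat) (r : ℕ) : Prop :=
  ∀ l : Fin 6, ∀ q, dist q (D.c r) = 1 → q ∈ D.F r l →
    q ∈ Lt T (D.c r) (D.x (G.sg r 0)) (D.x (G.sg r 1)) (D.x (G.sg r 2)) (D.x (G.sg r 3))
      (D.x (G.sg r 4)) (D.x (G.sg r 5)) (lm4 l)

theorem lf_of_semL (hL : LimL (posX (cen G D) (lts G D)) (Good (cen G D)) u L) {r k : ℕ}
    (hF : Sub4 T G D r) (hr : r < G.R + G.Y) (hk : k < 6) :
    LF T (D.c r) (D.x (G.sg r 0)) (D.x (G.sg r 1)) (D.x (G.sg r 2)) (D.x (G.sg r 3))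
      (D.x (G.sg r 4)) (D.x (G.sg r 5)) (u + (k : ℝ)) (lm4 (L (⟨r, hr⟩, ⟨k, hk⟩))) := by
  have h1 : Tendsto (fun s : ℝ => s + (k : ℝ)) (𝓝[<] u) (𝓝[<] (u + (k : ℝ))) := by
    refine tendsto_nhdsWithin_iff.2 ⟨?_, ?_⟩
    · have : Continuous fun s : ℝ => s + (k : ℝ) := by fun_prop
      exact (this.tendsto u).mono_left nhdsWithin_le_nhds
    · filter_upwards [self_mem_nhdsWithin] with s hs
      have hs : s < u := hs
      rw [mem_Iio]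
      linarith
  refine h1.frequently (hL.mono fun s hs => ?_)
  have h2 : pt (D.c r) (s + (k : ℝ)) ∈ D.F r (L (⟨r, hr⟩, ⟨k, hk⟩)) := hs.2 (⟨r, hr⟩, ⟨k, hk⟩)
  exact hF _ _ (dist_pt _ _) h2

theorem rf_of_semR (hK : LimR (posX (cen G D) (lts G D)) (Good (cen G D)) u K) {r k : ℕ}
    (hF : Sub4 T G D r) (hr : r < G.R + G.Y) (hk : k < 6) :
    RF T (D.c r) (D.x (G.sg r 0)) (D.x (G.sg r 1)) (D.x (G.sg r 2)) (D.x (G.sg r 3))
      (D.x (G.sg r 4)) (D.x (G.sg r 5)) (u + (k : ℝ)) (lm4 (K (⟨r, hr⟩, ⟨k, hk⟩))) := by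
  have h1 : Tendsto (fun s : ℝ => s + (k : ℝ)) (𝓝[>] u) (𝓝[>] (u + (k : ℝ))) := by
    refine tendsto_nhdsWithin_iff.2 ⟨?_, ?_⟩
    · have : Continuous fun s : ℝ => s + (k : ℝ) := by fun_prop
      exact (this.tendsto u).mono_left nhdsWithin_le_nhds
    · filter_upwards [self_mem_nhdsWithin] with s hs
      have hs : u < s := hs
      rw [mem_Ioi]
      linarith
  refine h1.frequently (hK.mono fun s hs => ?_)
  have h2 : pt (D.c r) (s + (k : ℝ)) ∈ D.F r (K (⟨r, hr⟩, ⟨k, hk⟩)) := hs.2 (⟨r, hr⟩, ⟨k, hk⟩)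
  exact hF _ _ (dist_pt _ _) h2

theorem xl_iff_lm4 {r k : ℕ} (hr : r < G.R + G.Y) (hk : k < 6) {l : ℕ} (hl : l < 4) :
    XL L r k l ↔ lm4 (L (⟨r, hr⟩, ⟨k, hk⟩)) = ⟨l, hl⟩ :=
  ⟨fun ⟨_, _, h⟩ => Fin.ext h, fun h => ⟨hr, hk, congrArg Fin.val h⟩⟩

/-! ### the fields -/

section fields

theorem sem_X0 {r k l : ℕ} : (semAt U T G D L0 u L K).X 0 r k l ↔ XL L r k l := by
  show (if (0 : ℕ) = 0 then XL L r k l else XL K r k l) ↔ _
  rw [if_pos rfl]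

theorem sem_X1 {r k l : ℕ} : (semAt U T G D L0 u L K).X 1 r k l ↔ XL K r k l := by
  show (if (1 : ℕ) = 0 then XL L r k l else XL K r k l) ↔ _
  rw [if_neg one_ne_zero]

variable (S : Sem) (hS : S = semAt U T G D L0 u L K)

include hS

theorem s_some : ∀ r < G.R, ∀ k < 6, S.X 0 r k 0 ∨ S.X 0 r k 1 ∨ S.X 0 r k 2 ∨ S.X 0 r k 3 := by
  subst hS
  intro r hr k hk
  simp only [sem_X0]
  exact xl_some (Nat.lt_add_right _ hr) hk

theorem s_ysome : ∀ s, G.R ≤ s → s < G.R + G.Y → ∀ k < 6,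
    S.X 0 s k 0 ∨ S.X 0 s k 1 ∨ S.X 0 s k 2 ∨ S.X 0 s k 3 := by
  subst hS
  intro r _ hr k hk
  simp only [sem_X0]
  exact xl_some hr hk

theorem t_some : ∀ r < G.R, ∀ k < 6, S.X 1 r k 0 ∨ S.X 1 r k 1 ∨ S.X 1 r k 2 ∨ S.X 1 r k 3 := by
  subst hS
  intro r hr k hk
  simp only [sem_X1]
  exact xl_some (Nat.lt_add_right _ hr) hk

theorem t_ysome : ∀ s, G.R ≤ s → s < G.R + G.Y → ∀ k < 6,
    S.X 1 s k 0 ∨ S.X 1 s k 1 ∨ S.X 1 s k 2 ∨ S.X 1 s k 3 := by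
  subst hS
  intro r _ hr k hk
  simp only [sem_X1]
  exact xl_some hr hk

theorem s_uniq : ∀ r < G.R, ∀ k < 6, ∀ l < 4, ∀ m < 4, S.X 0 r k l → S.X 0 r k m → l = m := by
  subst hS
  intro r _ k _ l _ m _ h1 h2
  exact xl_uniq (sem_X0.1 h1) (sem_X0.1 h2)

theorem s_yuniq : ∀ s, G.R ≤ s → s < G.R + G.Y → ∀ k < 6, ∀ l < 4, ∀ m < 4,
    S.X 0 s k l → S.X 0 s k m → l = m := by
  subst hS
  intro r _ _ k _ l _ m _ h1 h2
  exact xl_uniq (sem_X0.1 h1) (sem_X0.1 h2)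

theorem t_yuniq : ∀ s, G.R ≤ s → s < G.R + G.Y → ∀ k < 6, ∀ l < 4, ∀ m < 4,
    S.X 1 s k l → S.X 1 s k m → l = m := by
  subst hS
  intro r _ _ k _ l _ m _ h1 h2
  exact xl_uniq (sem_X1.1 h1) (sem_X1.1 h2)

theorem t_uniq : ∀ r < G.R, ∀ k < 6, ∀ l < 4, ∀ m < 4, S.X 1 r k l → S.X 1 r k m → l = m := by
  subst hS
  intro r _ k _ l _ m _ h1 h2
  exact xl_uniq (sem_X1.1 h1) (sem_X1.1 h2)

theorem s_legal (h : Irr U T) (R : Rings T (cen G D) (cls G D) (lts G D))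
    (hL : LimL (posX (cen G D) (lts G D)) (Good (cen G D)) u L) :
    ∀ r < G.R, ∀ k < 6, ∀ l < 4, S.X 0 r k l → ¬ S.X 0 r ((k + 1) % 6) l := by
  subst hS
  intro r _ k _ l _ h1 h2
  exact xl_legal ((R.sys h).limL_sel hL).2 (sem_X0.1 h1) (sem_X0.1 h2)

theorem t_legal (h : Irr U T) (R : Rings T (cen G D) (cls G D) (lts G D))
    (hK : LimR (posX (cen G D) (lts G D)) (Good (cen G D)) u K) :
    ∀ r < G.R, ∀ k < 6, ∀ l < 4, S.X 1 r k l → ¬ S.X 1 r ((k + 1) % 6) l := by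
  subst hS
  intro r _ k _ l _ h1 h2
  exact xl_legal ((R.sys h).limR_sel hK).2 (sem_X1.1 h1) (sem_X1.1 h2)

theorem s_ylegal (h : Irr U T) (R : Rings T (cen G D) (cls G D) (lts G D))
    (hL : LimL (posX (cen G D) (lts G D)) (Good (cen G D)) u L) :
    ∀ s, G.R ≤ s → s < G.R + G.Y → ∀ k < 6, ∀ l < 4, S.X 0 s k l →
      ¬ S.X 0 s ((k + 1) % 6) l := by
  subst hS
  intro r _ _ k _ l _ h1 h2
  exact xl_legal ((R.sys h).limL_sel hL).2 (sem_X0.1 h1) (sem_X0.1 h2)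

theorem t_ylegal (h : Irr U T) (R : Rings T (cen G D) (cls G D) (lts G D))
    (hK : LimR (posX (cen G D) (lts G D)) (Good (cen G D)) u K) :
    ∀ s, G.R ≤ s → s < G.R + G.Y → ∀ k < 6, ∀ l < 4, S.X 1 s k l →
      ¬ S.X 1 s ((k + 1) % 6) l := by
  subst hS
  intro r _ _ k _ l _ h1 h2
  exact xl_legal ((R.sys h).limR_sel hK).2 (sem_X1.1 h1) (sem_X1.1 h2)

theorem s_ylegal2 (h : Irr U T) (R : Rings T (cen G D) (cls G D) (lts G D))
    (hL : LimL (posX (cen G D) (lts G D)) (Good (cen G D)) u L)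
    (hyr : ∀ s, G.R ≤ s → s < G.R + G.Y → dist (D.c (G.yr s)) (D.c s) = 1) :
    ∀ s, G.R ≤ s → s < G.R + G.Y → ∀ k < 6, ∀ l < 4, ∀ m < 4, ∀ i ∈ lc G (G.yr s) l,
      i ∈ lc G s m → S.X 0 (G.yr s) k l → ¬ S.X 0 s k m := by
  subst hS
  intro s hs hs' k _ l _ m _ i h1 h2 h3 h4
  exact xl_legal2 ((R.sys h).limL_sel hL).2 (hyr s hs hs') h1 h2 (sem_X0.1 h3) (sem_X0.1 h4)

theorem t_ylegal2 (h : Irr U T) (R : Rings T (cen G D) (cls G D) (lts G D))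
    (hK : LimR (posX (cen G D) (lts G D)) (Good (cen G D)) u K)
    (hyr : ∀ s, G.R ≤ s → s < G.R + G.Y → dist (D.c (G.yr s)) (D.c s) = 1) :
    ∀ s, G.R ≤ s → s < G.R + G.Y → ∀ k < 6, ∀ l < 4, ∀ m < 4, ∀ i ∈ lc G (G.yr s) l,
      i ∈ lc G s m → S.X 1 (G.yr s) k l → ¬ S.X 1 s k m := by
  subst hS
  intro s hs hs' k _ l _ m _ i h1 h2 h3 h4
  exact xl_legal2 ((R.sys h).limR_sel hK).2 (hyr s hs hs') h1 h2 (sem_X1.1 h3) (sem_X1.1 h4)

theorem s_legal2 (h : Irr U T) (R : Rings T (cen G D) (cls G D) (lts G D))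
    (hL : LimL (posX (cen G D) (lts G D)) (Good (cen G D)) u L)
    (hadj : ∀ r < G.R, ∀ s < G.R, G.adj r s = true → dist (D.c r) (D.c s) = 1) :
    ∀ r < G.R, ∀ s < G.R, G.adj r s = true → ∀ k < 6, ∀ l < 4, ∀ m < 4, ∀ i ∈ lc G r l,
      i ∈ lc G s m → S.X 0 r k l → ¬ S.X 0 s k m := by
  subst hS
  intro r hr s hs ha k _ l _ m _ i h1 h2 h3 h4
  exact xl_legal2 ((R.sys h).limL_sel hL).2 (hadj r hr s hs ha) h1 h2 (sem_X0.1 h3)
    (sem_X0.1 h4)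

theorem t_legal2 (h : Irr U T) (R : Rings T (cen G D) (cls G D) (lts G D))
    (hK : LimR (posX (cen G D) (lts G D)) (Good (cen G D)) u K)
    (hadj : ∀ r < G.R, ∀ s < G.R, G.adj r s = true → dist (D.c r) (D.c s) = 1) :
    ∀ r < G.R, ∀ s < G.R, G.adj r s = true → ∀ k < 6, ∀ l < 4, ∀ m < 4, ∀ i ∈ lc G r l,
      i ∈ lc G s m → S.X 1 r k l → ¬ S.X 1 s k m := by
  subst hS
  intro r hr s hs ha k _ l _ m _ i h1 h2 h3 h4
  exact xl_legal2 ((R.sys h).limR_sel hK).2 (hadj r hr s hs ha) h1 h2 (sem_X1.1 h3)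
    (sem_X1.1 h4)

theorem t_LC (h : Irr U T) (R : Rings T (cen G D) (cls G D) (lts G D))
    (hL : LimL (posX (cen G D) (lts G D)) (Good (cen G D)) u L)
    (hK : LimR (posX (cen G D) (lts G D)) (Good (cen G D)) u K) :
    ∀ t < 2, ∀ r < G.R, ∀ k < 6, ∀ l < 4, ∀ i ∈ lc G r l, S.X t r k l → S.C r k i := by
  subst hS
  intro t ht r _ k _ l _ i hi h1
  have ht' : t = 0 ∨ t = 1 := by omega
  rcases ht' with rfl | rfl
  · exact xl_col R ((R.sys h).limL_sel hL).1 hi (sem_X0.1 h1)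
  · exact xl_col R ((R.sys h).limR_sel hK).1 hi (sem_X1.1 h1)

theorem t_s4word (h : Irr U T)
    (hL : LimL (posX (cen G D) (lts G D)) (Good (cen G D)) u L)
    (hK : LimR (posX (cen G D) (lts G D)) (Good (cen G D)) u K)
    (hF : ∀ r < G.R, Sub4 T G D r)
    (hz : ∀ r < G.R, DPt T (D.c r) (D.x (G.sg r 0)) (D.x (G.sg r 1)) (D.x (G.sg r 2))
      (D.x (G.sg r 3)))
    (nd : ∀ r < G.R, [D.x (G.sg r 0), D.x (G.sg r 1), D.x (G.sg r 2), D.x (G.sg r 3),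
      D.x (G.sg r 4), D.x (G.sg r 5)].Nodup) :
    ∀ r < G.R, ∀ k < 6, ∀ w < 4, S.D r k w →
      (S.X 0 r k (2 + w / 2) ↔ ¬ S.X 1 r k (2 + w / 2)) := by
  subst hS
  intro r hr0 k hk w hw hD
  have hr : r < G.R + G.Y := Nat.lt_add_right _ hr0
  have hl := lf_of_semL hL (hF r hr0) hr hk
  have hm := rf_of_semR hK (hF r hr0) hr hk
  have h2 : 2 + w / 2 < 4 := by omega
  rw [sem_X0, sem_X1, xl_iff_lm4 hr hk h2, xl_iff_lm4 hr hk h2]
  generalize lm4 (L (⟨r, hr⟩, ⟨k, hk⟩)) = l at hl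
  generalize lm4 (K (⟨r, hr⟩, ⟨k, hk⟩)) = m at hm
  have hw' : w = 0 ∨ w = 1 ∨ w = 2 ∨ w = 3 := by omega
  have e2 : ∀ l m : Fin 4, ((l = 2 ∧ (m = 0 ∨ m = 1)) ∨ (m = 2 ∧ (l = 0 ∨ l = 1))) →
      (l = 2 ↔ ¬ m = 2) := by decide
  have e3 : ∀ l m : Fin 4, ((l = 3 ∧ (m = 0 ∨ m = 1)) ∨ (m = 3 ∧ (l = 0 ∨ l = 1))) →
      (l = 3 ↔ ¬ m = 3) := by decide
  rcases hw' with rfl | rfl | rfl | rfl
  · exact e2 l m (h.f_s4word (hz r hr0) (nd r hr0) (Or.inl hD) hl hm)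
  · exact e2 l m (h.f_s4word (hz r hr0) (nd r hr0) (Or.inr hD) hl hm)
  · exact e3 l m (h.f_s4word' (hz r hr0) (nd r hr0) (Or.inl hD) hl hm)
  · exact e3 l m (h.f_s4word' (hz r hr0) (nd r hr0) (Or.inr hD) hl hm)

end fields

/-- `IF.initX` -/
theorem i_initX (S : Sem) (hS : S = semAt U T G D L0 u L0 K) :
    ∀ r < G.R, ∀ k < 6, ∀ l < 4, (S.X 0 r k l ↔ S.I r k l) := by
  subst hS
  intro r _ k _ l _
  exact sem_X0

/-- `IF.initY` -/
theorem i_initY (S : Sem) (hS : S = semAt U T G D L0 u L0 K) :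
    ∀ s, G.R ≤ s → s < G.R + G.Y → ∀ k < 6, ∀ l < 4, (S.X 0 s k l ↔ S.I s k l) := by
  subst hS
  intro r _ _ k _ l _
  exact sem_X0

theorem sem_ty0 {r p k : ℕ} : (semAt U T G D L0 u L K).ty 0 r p k ↔ TL L r p k := by
  show (if (0 : ℕ) = 0 then TL L r p k else TL K r p k) ↔ _
  rw [if_pos rfl]

theorem sem_ty1 {r p k : ℕ} : (semAt U T G D L0 u L K).ty 1 r p k ↔ TL K r p k := by
  show (if (1 : ℕ) = 0 then TL L r p k else TL K r p k) ↔ _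
  rw [if_neg one_ne_zero]

/-- `IF.initF` -/
theorem i_initF (S : Sem) (hS : S = semAt U T G D L0 u L0 K) :
    ∀ r < G.R, ∀ p < 2, G.ty r p = true → ∀ k < 6, (S.ty 0 r p k ↔ S.ti r p k) := by
  subst hS
  intro r _ p _ _ k _
  exact sem_ty0

/-- the letter set number of the turned selection -/
theorem rot_at {r k : ℕ} (hr : r < G.R + G.Y) (hk : k < 6) (hk' : (k + 1) % 6 < 6) :
    (rot L0) (⟨r, hr⟩, ⟨k, hk⟩) = L0 (⟨r, hr⟩, ⟨(k + 1) % 6, hk'⟩) := by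
  have e : (⟨k, hk⟩ : Fin 6) + 1 = ⟨(k + 1) % 6, hk'⟩ := by
    apply Fin.ext
    show (k + 1 % 6) % 6 = (k + 1) % 6
    omega
  show L0 (⟨r, hr⟩, ⟨k, hk⟩ + 1) = _
  rw [e]

theorem xl_rot {r k l : ℕ} (hk : k < 6) : XL (rot L0) r k l ↔ XL L0 r ((k + 1) % 6) l := by
  have hk' : (k + 1) % 6 < 6 := Nat.mod_lt _ (by norm_num)
  constructor
  · rintro ⟨hr, _, h1⟩
    exact ⟨hr, hk', by rw [← h1, rot_at hr hk hk']⟩
  · rintro ⟨hr, _, h1⟩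
    exact ⟨hr, hk, by rw [← h1, rot_at hr hk hk']⟩

theorem tl_rot {r p k : ℕ} (hk : k < 6) : TL (rot L0) r p k ↔ TL L0 r p ((k + 1) % 6) := by
  have hk' : (k + 1) % 6 < 6 := Nat.mod_lt _ (by norm_num)
  constructor
  · rintro ⟨hr, _, h1⟩
    exact ⟨hr, hk', by rw [← h1, rot_at hr hk hk']⟩
  · rintro ⟨hr, _, h1⟩
    exact ⟨hr, hk, by rw [← h1, rot_at hr hk hk']⟩

/-- `BF.closeX` -/
theorem b_closeX (S : Sem) (hS : S = semAt U T G D L0 u (rot L0) K) :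
    ∀ r < G.R, ∀ k < 6, ∀ l < 4, (S.X 0 r k l ↔ S.I r ((k + 1) % 6) l) := by
  subst hS
  intro r _ k hk l _
  rw [sem_X0]
  exact xl_rot hk

/-- `BF.closeY` -/
theorem b_closeY (S : Sem) (hS : S = semAt U T G D L0 u (rot L0) K) :
    ∀ s, G.R ≤ s → s < G.R + G.Y → ∀ k < 6, ∀ l < 4,
      (S.X 0 s k l ↔ S.I s ((k + 1) % 6) l) := by
  subst hS
  intro r _ _ k hk l _
  rw [sem_X0]
  exact xl_rot hk

/-- `BF.closeF` -/
theorem b_closeF (S : Sem) (hS : S = semAt U T G D L0 u (rot L0) K) :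
    ∀ r < G.R, ∀ p < 2, G.ty r p = true → ∀ k < 6, S.X 0 r k (2 + p) →
      (S.ty 0 r p k ↔ S.ti r p ((k + 1) % 6)) := by
  subst hS
  intro r _ p _ _ k hk _
  rw [sem_ty0]
  exact tl_rot hk

end Vale.Agent.P032.R2.H301
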